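import Vale.Agent.P333.Final

namespace Vale.Agent.Results.P333.TwoApprox

open Vale.Agent.P333

theorem result : ∃ A : List (List (List Bool)) → List (List Bool),
    (∃ M : Turing.TM2ComputableInPolyTime encInstance encString A, ∀ k, Finite (M.tm.Γ k)) ∧
    ∀ S : List (List (List Bool)), (∀ s ∈ S, s <:+: A S) ∧
      ∀ T : List (List Bool), (∀ s ∈ S, s <:+: T) → (A S).length ≤ 2 * T.length :=
  ⟨alg, by rw [encInstance_eq, encString_eq]; exact pt_alg.tm, fun S =>
    ⟨(alg_spec S S.flatten fun _ hs => List.infix_of_mem_flatten hs).1,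
      fun T h => (alg_spec S T h).2⟩⟩

end Vale.Agent.Results.P333.TwoApprox
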